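import Vale.Agent.P073.H655.Tame8

/-!
# P073: homeomorphisms with small singular sets, for every exponent `1 ≤ p < ∞`
-/

namespace Vale.Agent.Results.P073.SmallSingularSets

open Vale.Agent.P073.St Vale.Agent.P073.H655.V8
open Vale.Agent.P073.H655.V6 (FinelyApproximable)

/-- Let `1 ≤ p < ∞` and let `f : Ω → Λ` be a `W^{1,p}` homeomorphism between bounded domains of
`ℝ³`. Call `f` tame (`Tower`) if there are relatively closed subsets
`∅ = K_0 ⊆ K_1 ⊆ ... ⊆ K_m` of `Ω` such that

* on `Ω \ K_m` the map `f` is of class `C¹` with invertible derivative at every point, or locally
  finite piecewise affine, or locally monotone (`(x - y) · A (f x - f y) ≥ 0` for all `x`, `y` near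
  each point, with an invertible matrix `A`; for instance locally the gradient of a convex
  function), or near every point of small distortion (after linear changes of variables; with a
  fixed constant `c < √5`) or directionally monotone, or a composition of finitely many
  homeomorphisms between bounded domains with the last property (for instance the flow of a
  Lipschitz vector field);
* each of the sets `K = K_{i+1} \ K_i` is small in `Ω' = Ω \ K_i`, after linear changes of
  variables in the domain and in the target (which depend on `i`): the set `f(K)` has null
  projections to the coordinate axes (for instance if the length of `f(K)` is zero, or if `K` is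
  countable); or `p < 3` and `K` has σ-finite length (for instance, `K` is a countable union of
  rectifiable curves), or, if `2 < p < 3`, σ-finite `(2p-3)/(p-1)`-dimensional measure, or area
  zero if `f` is locally Lipschitz on `Ω'`, or null projections to the coordinate axes, or, more
  generally, almost all its slices parallel to the coordinate planes and the images of these slices
  have null projections to the coordinate axes; or `p > 3` and `K` has σ-finite
  `(p-3)/(p-1)`-dimensional Hausdorff measure.

(1) If `f` is tame, then `f` is finely diffeomorphically approximable in `W^{1,p}`: for every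
positive continuous function `σ` on `Ω` and every `ε > 0` there is a `C^∞` diffeomorphism `g` of `Ω`
onto `Λ`, in `W^{1,p}`, with `|g - f| ≤ σ` on `Ω` and `∫_Ω |g - f|^p + |D g - D f|^p ≤ ε`. In
particular `f` is diffeomorphically approximable in `W^{1,p}`.

(2) `f` is diffeomorphically approximable in `W^{1,p}` if and only if it is the limit in `W^{1,p}`
of tame `W^{1,p}` homeomorphisms of `Ω` onto `Λ`. -/
theorem result (p : ℝ) (hp : 1 ≤ p) (Ω Λ : Set V) (hΩ : IsBoundedDomain Ω)
    (hΛ : IsBoundedDomain Λ) (f : V → V) (hf : IsHomeo Ω Λ f) (F : V → Mat)
    (hF : IsSobolev p Ω f F) :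
    (Tower p Ω Λ f → FinelyApproximable p Ω Λ f F ∧ DiffeoApproximable p Ω Λ f F) ∧
    (TowerApproximable p Ω Λ f F ↔ DiffeoApproximable p Ω Λ f F) :=
  ⟨fun h => ⟨tower_finely hp hΩ hΛ hf hF h, tower_approximable hp hΩ hΛ hf hF h⟩,
    tower_iff hp hΩ hΛ hf hF⟩

end Vale.Agent.Results.P073.SmallSingularSets
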